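import Vale.Agent.P235.H485.Coup
import Vale.Agent.P235.H926.Params

/-!
# The coupling along a root path, over the chains of claim F
-/

namespace Vale.Agent.P235.H485

open Finset Vale.Agent.P235.H926

variable {V : Type} [DecidableEq V] {n : ℕ} (C : PathChain.{0, 0} V n)

theorem D_nonneg : ∀ i ω v, 0 ≤ C.D i ω v
  | 0 => fun _ _ => le_rfl
  | i + 1 => fun ω v => by
    have ih := D_nonneg i
    have h1 : ∀ a, 0 ≤ C.avg i (fun ω => C.D i ω a) ω := by
      intro a
      unfold PathChain.avg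
      refine div_nonneg (sum_nonneg fun w _ => ?_) (C.P_nonneg _ _)
      exact mul_nonneg (C.Q_nonneg _ _ _) (ih w a)
    unfold PathChain.D
    split_ifs with h h'
    · exact h1 v
    · rw [le_inf'_iff]
      intro a _
      exact add_nonneg (h1 a) (abs_nonneg _)
    · exact le_rfl

theorem D_le {G : ℝ} (hG : ∀ i ≤ n, ∀ ω, ∀ p ∈ C.B i, |C.g i ω p| ≤ G) (hG0 : 0 ≤ G) :
    ∀ i ≤ n, ∀ ω, ∀ p ∈ C.B i, C.D i ω p ≤ 2 * G * i := by
  intro i
  induction i with
  | zero =>
    intro _ ω p _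
    rw [C.D_zero]
    simp
  | succ i ih =>
    intro hi ω' p hp
    have hi' : i < n := hi
    have h1 : ∀ a ∈ C.A (i + 1), C.D (i + 1) ω' a ≤ 2 * G * i := by
      intro a ha
      rw [C.D_succ_mem hi' ha]
      unfold PathChain.avg
      have hPn := C.P_nonneg (i + 1) ω'
      rcases hPn.eq_or_lt with h0 | h0
      · rw [← h0, div_zero]
        positivity
      · rw [div_le_iff₀ h0]
        calc ∑ ω, C.Q i ω ω' * C.D i ω a ≤ ∑ ω, C.Q i ω ω' * (2 * G * i) := by
              refine sum_le_sum fun ω _ => ?_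
              exact mul_le_mul_of_nonneg_left (ih hi'.le ω a (C.A_sub i hi' ha)) (C.Q_nonneg _ _ _)
          _ = 2 * G * i * C.P (i + 1) ω' := by
              rw [← sum_mul, C.Q_right i hi']
              ring
    by_cases hA : p ∈ C.A (i + 1)
    · refine le_trans (h1 p hA) ?_
      push_cast
      nlinarith
    · rw [C.D_succ_notMem hi' hA]
      obtain ⟨a, ha⟩ := C.A_ne i hi'
      refine le_trans (inf'_le _ ha) ?_
      have h2 := h1 a ha
      have haB : a ∈ C.B (i + 1) := by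
        rw [C.B_succ i hi']
        exact mem_insert_of_mem ha
      have h3 := hG (i + 1) hi ω' p hp
      have h4 := hG (i + 1) hi ω' a haB
      have h5 : |C.g (i + 1) ω' p - C.g (i + 1) ω' a| ≤ |C.g (i + 1) ω' p| + |C.g (i + 1) ω' a| :=
        abs_sub _ _
      push_cast
      linarith

/-- **P5b over a path chain**: the coupling with the monitors `C.D`. -/
theorem coupling_chain [Fintype V] {G K : ℝ} (hK : 0 < K)
    (hG : ∀ i ≤ n, ∀ ω, ∀ p ∈ C.B i, |C.g i ω p| ≤ G) (hG0 : 0 ≤ G) (hGK : G * (2 * n + 1) ≤ K)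
    {x : V} (hx : x ∈ C.B n) :
    ∃ (Om' : Type) (_ : Fintype Om') (P' : Om' → ℝ) (X : ℕ → Om' → V → Bool),
      (∀ w, 0 ≤ P' w) ∧
      (∀ i ≤ n, ∀ h : (V → Bool) → ℝ,
        (∀ X X' : V → Bool, (∀ p ∈ C.B i, X p = X' p) → h X = h X') →
        ∑ w, P' w * h (X i w) = mu K (C.P i) (C.g i) h) ∧
      (∀ i < n, ∀ w, P' w ≠ 0 → ∀ a ∈ C.A (i + 1), X i w a = X (i + 1) w a) ∧
      (∀ f : (V → Bool) → Bool, (∑ w, C.P n w * C.D n w x) / (2 * K) ≤
        ∑ w, P' w * (if X n w x = f (X 0 w) then 0 else 1)) := by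
  classical
  set D' : ∀ i, C.Ω i → V → ℝ := fun i w p => if 0 < C.P i w then C.D i w p else 0 with hD'
  have hPD : ∀ i w p, C.P i w * D' i w p = C.P i w * C.D i w p := by
    intro i w p
    simp only [hD']
    split_ifs with h
    · rfl
    · have : C.P i w = 0 := le_antisymm (not_lt.mp h) (C.P_nonneg i w)
      rw [this]
      ring
  have hQD : ∀ i < n, ∀ w w' p, C.Q i w w' * D' i w p = C.Q i w w' * C.D i w p := by
    intro i hi w w' p
    simp only [hD']
    split_ifs with h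
    · rfl
    · have h1 : C.P i w = 0 := le_antisymm (not_lt.mp h) (C.P_nonneg i w)
      have h2 := C.Q_left i hi w
      rw [h1] at h2
      have h3 := (sum_eq_zero_iff_of_nonneg fun w' _ => C.Q_nonneg i w w').mp h2 w' (mem_univ _)
      rw [h3]
      ring
  obtain ⟨Om', hf, P', X, h1, h2, h3, h4⟩ := coupling (V := V) n C.Ω C.P C.Q C.g D' C.B C.A hK
    (fun i _ w => C.P_nonneg i w) (fun i _ w w' => C.Q_nonneg i w w') C.Q_left C.Q_right C.A_sub
    (fun i hi => by
      rw [C.B_succ i hi]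
      exact subset_insert _ _)
    (fun i hi w' a ha => C.ce i hi a ha w')
    (fun i hi w' a ha => by
      rw [hPD, C.P_mul_D hi ha]
      exact sum_congr rfl fun w _ => hQD i hi w w' a)
    (fun i hi w' a ha b hb => C.ord i hi a ha b hb w')
    (fun i hi w p hp q hq => by
      simp only [hD']
      split_ifs with h
      · exact C.D_lip i hi w h p hp q hq
      · simp)
    (fun w p _ => by
      simp only [hD', C.D_zero, ite_self])
    (fun i hi w p hp => by
      have h5 : |D' i w p| ≤ 2 * G * i := by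
        simp only [hD']
        split_ifs with h
        · rw [abs_of_nonneg (D_nonneg C i w p)]
          exact D_le C hG hG0 i hi w p hp
        · rw [abs_zero]
          positivity
      have h6 := hG i hi w p hp
      have h7 : (i : ℝ) ≤ n := by exact_mod_cast hi
      nlinarith)
    x hx
  refine ⟨Om', hf, P', X, h1, h2, h3, fun f => ?_⟩
  have h5 := h4 f
  rw [sum_congr rfl fun w _ => hPD n w x] at h5
  exact h5

/-- The coupling together with claim F: the cut at `x` differs from every function of the cut on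
the first bag with mass at least `r x / (2 K C1)`. -/
theorem coupling_fresh [Fintype V] {G K : ℝ} (hK : 0 < K)
    (hG : ∀ i ≤ n, ∀ ω, ∀ p ∈ C.B i, |C.g i ω p| ≤ G) (hG0 : 0 ≤ G) (hGK : G * (2 * n + 1) ≤ K)
    {kk : ℕ} (hkk : 0 < kk) {κ η₀ : ℝ} (hκ : 0 < κ)
    (hη : kk * η₀ ≤ PathChain.thSeq kk (kk - 1) / 4)
    {r : V → ℝ} {d : V → V → ℝ}
    (hcard : ∀ i < n, (C.A (i + 1)).card ≤ kk)
    (hr0 : ∀ v ∈ C.B 0, r v ≤ 0)
    (hr : ∀ i < n, ∀ a ∈ C.A (i + 1), r (C.z (i + 1)) ≤ r a + d (C.z (i + 1)) a)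
    (hd : ∀ i < n, ∀ a ∈ C.A (i + 1), 0 ≤ d (C.z (i + 1)) a)
    (hLip : ∀ i < n, ∀ a ∈ C.A (i + 1),
      ∑ ω, C.P (i + 1) ω * |C.g (i + 1) ω (C.z (i + 1)) - C.g (i + 1) ω a| ≤ d (C.z (i + 1)) a)
    (hAC : ∀ i < n, ∀ a ∈ C.A (i + 1),
      (∑ ω, if |C.g (i + 1) ω (C.z (i + 1)) - C.g (i + 1) ω a| < κ * d (C.z (i + 1)) a
        then C.P (i + 1) ω else 0) ≤ η₀)
    {x : V} (hx : x ∈ C.B n) :
    ∃ (Om' : Type) (_ : Fintype Om') (P' : Om' → ℝ) (X : ℕ → Om' → V → Bool),
      (∀ w, 0 ≤ P' w) ∧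
      (∀ i ≤ n, ∀ h : (V → Bool) → ℝ,
        (∀ X X' : V → Bool, (∀ p ∈ C.B i, X p = X' p) → h X = h X') →
        ∑ w, P' w * h (X i w) = mu K (C.P i) (C.g i) h) ∧
      (∀ i < n, ∀ w, P' w ≠ 0 → ∀ a ∈ C.A (i + 1), X i w a = X (i + 1) w a) ∧
      (∀ f : (V → Bool) → Bool, r x / (2 * K * PathChain.C1 kk κ) ≤
        ∑ w, P' w * (if X n w x = f (X 0 w) then 0 else 1)) := by
  obtain ⟨Om', hf, P', X, h1, h2, h3, h4⟩ := coupling_chain C hK hG hG0 hGK hx
  refine ⟨Om', hf, P', X, h1, h2, h3, fun f => le_trans ?_ (h4 f)⟩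
  have h5 : r x ≤ PathChain.C1 kk κ * ∑ ω, C.P n ω * C.D n ω x :=
    C.fresh (PathChain.params hkk hκ hη) hcard hr0 hr hd hLip hAC hx hkk
  have h6 : 0 < PathChain.C1 kk κ := PathChain.C1_pos hkk hκ
  rw [div_le_div_iff₀ (by positivity) (by positivity)]
  nlinarith

end Vale.Agent.P235.H485
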