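import Vale.Agent.P235.H485.Cut

/-!
P235, bounded treewidth (plan #9610): the coupling of section 5.
-/

namespace Vale.Agent.P235.H485

open Finset

variable {V : Type} [Fintype V] [DecidableEq V]

/-! ### Gluing of laws of cuts -/

theorem glue_step {Om : Type} [Fintype Om] (W : Om → ℝ) (hW : ∀ w, 0 ≤ W w) (X : Om → Finset V)
    (A : Finset V) (nu : Finset V → ℝ) (hnu : ∀ S, 0 ≤ nu S)
    (hcons : ∀ F : Finset V → ℝ, ∑ w, W w * F (X w ∩ A) = ∑ S, nu S * F (S ∩ A)) :
    ∃ W' : Om × Finset V → ℝ, (∀ z, 0 ≤ W' z) ∧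
      (∀ G : Om → ℝ, ∑ z, W' z * G z.1 = ∑ w, W w * G w) ∧
      (∀ F : Finset V → ℝ, ∑ z, W' z * F z.2 = ∑ S, nu S * F S) ∧
      (∀ z, W' z ≠ 0 → X z.1 ∩ A = z.2 ∩ A) := by
  classical
  set c : Finset V → ℝ := fun C => ∑ S, nu S * (if S ∩ A = C then 1 else 0) with hc
  have hc' : ∀ C, c C = ∑ w, W w * (if X w ∩ A = C then 1 else 0) := fun C =>
    (hcons fun S => if S = C then 1 else 0).symm
  have hcnu : ∀ S, c (S ∩ A) = 0 → nu S = 0 := by
    intro S h
    have h1 : ∀ S' ∈ univ, 0 ≤ nu S' * (if S' ∩ A = S ∩ A then (1 : ℝ) else 0) := by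
      intro S' _
      refine mul_nonneg (hnu S') ?_
      split_ifs <;> norm_num
    have h2 := (sum_eq_zero_iff_of_nonneg h1).mp h S (mem_univ S)
    simpa using h2
  have hcW : ∀ w, c (X w ∩ A) = 0 → W w = 0 := by
    intro w h
    rw [hc'] at h
    have h1 : ∀ w' ∈ univ, 0 ≤ W w' * (if X w' ∩ A = X w ∩ A then (1 : ℝ) else 0) := by
      intro w' _
      refine mul_nonneg (hW w') ?_
      split_ifs <;> norm_num
    have h2 := (sum_eq_zero_iff_of_nonneg h1).mp h w (mem_univ w)
    simpa using h2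
  have hc0 : ∀ C, 0 ≤ c C := fun C => sum_nonneg fun S _ => by
    refine mul_nonneg (hnu S) ?_
    split_ifs <;> norm_num
  refine ⟨fun z => if X z.1 ∩ A = z.2 ∩ A then W z.1 * nu z.2 / c (z.2 ∩ A) else 0, ?_, ?_, ?_, ?_⟩
  · intro z
    dsimp only
    split_ifs
    · exact div_nonneg (mul_nonneg (hW _) (hnu _)) (hc0 _)
    · exact le_rfl
  · intro G
    rw [Fintype.sum_prod_type]
    refine sum_congr rfl fun w _ => ?_
    dsimp only
    rw [← sum_mul]
    congr 1
    by_cases h : c (X w ∩ A) = 0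
    · rw [hcW w h]
      refine sum_eq_zero fun S _ => ?_
      split_ifs <;> simp
    · have h1 : ∀ S, (if X w ∩ A = S ∩ A then W w * nu S / c (S ∩ A) else 0) =
          (nu S * (if S ∩ A = X w ∩ A then 1 else 0)) * (W w / c (X w ∩ A)) := by
        intro S
        by_cases h2 : X w ∩ A = S ∩ A
        · rw [if_pos h2, if_pos h2.symm, h2]
          ring
        · rw [if_neg h2, if_neg fun h3 => h2 h3.symm]
          ring
      rw [sum_congr rfl fun S _ => h1 S, ← sum_mul]
      show c (X w ∩ A) * (W w / c (X w ∩ A)) = W w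
      field_simp
  · intro F
    rw [Fintype.sum_prod_type_right]
    refine sum_congr rfl fun S _ => ?_
    dsimp only
    rw [← sum_mul]
    congr 1
    by_cases h : c (S ∩ A) = 0
    · rw [hcnu S h]
      refine sum_eq_zero fun w _ => ?_
      split_ifs <;> simp
    · have h1 : ∀ w, (if X w ∩ A = S ∩ A then W w * nu S / c (S ∩ A) else 0) =
          (W w * (if X w ∩ A = S ∩ A then 1 else 0)) * (nu S / c (S ∩ A)) := by
        intro w
        split_ifs <;> ring
      rw [sum_congr rfl fun w _ => h1 w, ← sum_mul, ← hc']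
      field_simp
  · intro z hz
    by_contra h
    exact hz (if_neg h)

theorem glue_chain (nu : ℕ → Finset V → ℝ) (A : ℕ → Finset V) (n : ℕ)
    (hnu : ∀ i ≤ n, ∀ S, 0 ≤ nu i S)
    (hcons : ∀ i < n, ∀ F : Finset V → ℝ,
      ∑ S, nu i S * F (S ∩ A (i + 1)) = ∑ S, nu (i + 1) S * F (S ∩ A (i + 1))) :
    ∃ (Om : Type) (_ : Fintype Om) (W : Om → ℝ) (X : ℕ → Om → Finset V),
      (∀ w, 0 ≤ W w) ∧
      (∀ i ≤ n, ∀ F : Finset V → ℝ, ∑ w, W w * F (X i w) = ∑ S, nu i S * F S) ∧
      (∀ i < n, ∀ w, W w ≠ 0 → X i w ∩ A (i + 1) = X (i + 1) w ∩ A (i + 1)) := by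
  induction n with
  | zero =>
    refine ⟨Finset V, inferInstance, nu 0, fun _ S => S, hnu 0 le_rfl, ?_, ?_⟩
    · intro i hi F
      rw [Nat.le_zero.mp hi]
    · intro i hi
      omega
  | succ n ih =>
    obtain ⟨Om, _, W, X, h1, h2, h3⟩ := ih (fun i hi => hnu i (by omega))
      (fun i hi => hcons i (by omega))
    obtain ⟨W', g1, g2, g3, g4⟩ := glue_step W h1 (X n) (A (n + 1)) (nu (n + 1))
      (hnu (n + 1) le_rfl) (fun F => by
        rw [h2 n le_rfl fun S => F (S ∩ A (n + 1))]
        exact hcons n (by omega) F)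
    refine ⟨Om × Finset V, inferInstance, W', fun i z => if i ≤ n then X i z.1 else z.2, g1, ?_, ?_⟩
    · intro i hi F
      by_cases h : i ≤ n
      · simp only [h, if_true]
        rw [g2 fun w => F (X i w)]
        exact h2 i h F
      · have : i = n + 1 := by omega
        subst this
        simp only [h, if_false]
        exact g3 F
    · intro i hi z hz
      by_cases h : i < n
      · have h' : i + 1 ≤ n := h
        have h'' : i ≤ n := by omega
        simp only [h', h'', if_true]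
        refine h3 i h z.1 ?_
        intro h4
        have h5 : W' z = 0 := by
          classical
          have h7 := g2 fun w => if w = z.1 then 1 else 0
          have h8 : ∑ w, W w * (if w = z.1 then (1 : ℝ) else 0) = 0 := by
            simp [h4]
          rw [h8] at h7
          have h9 : ∀ y ∈ univ, 0 ≤ W' y * (if y.1 = z.1 then (1 : ℝ) else 0) := by
            intro y _
            refine mul_nonneg (g1 y) ?_
            split_ifs <;> norm_num
          have h10 := (sum_eq_zero_iff_of_nonneg h9).mp h7 z (mem_univ z)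
          simpa using h10
        exact hz h5
      · have h' : i = n := by omega
        subst h'
        have h'' : ¬ i + 1 ≤ i := by omega
        simp only [le_refl, if_true, h'', if_false]
        exact g4 z hz

/-! ### Laws of level cuts -/

/-- The mean of a function of the level cut on `B` of the random function `h`. -/
noncomputable def cutE {Om : Type} [Fintype Om] (K : ℝ) (P : Om → ℝ) (h : Om → V → ℝ)
    (B : Finset V) (F : Finset V → ℝ) : ℝ := (∑ w, P w * cutI K B (h w) F) / (2 * K)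

/-- The indicator of a point. -/
def pt (S : Finset V) : Finset V → ℝ := fun S' => if S' = S then 1 else 0

theorem cutI_expand (K : ℝ) (B : Finset V) (h : V → ℝ) (F : Finset V → ℝ) :
    cutI K B h F = ∑ S, F S * cutI K B h (pt S) := by
  have h1 : F = fun S' => ∑ S, F S * pt S S' := by
    funext S'
    simp [pt]
  conv_lhs => rw [h1]
  rw [cutI_sum]
  exact sum_congr rfl fun S _ => cutI_const_mul _ _ _ _ _

theorem cutE_expand {Om : Type} [Fintype Om] (K : ℝ) (P : Om → ℝ) (h : Om → V → ℝ)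
    (B : Finset V) (F : Finset V → ℝ) :
    ∑ S, cutE K P h B (pt S) * F S = cutE K P h B F := by
  unfold cutE
  have h1 : ∀ w, P w * cutI K B (h w) F = ∑ S, P w * cutI K B (h w) (pt S) * F S := by
    intro w
    rw [cutI_expand, mul_sum]
    refine sum_congr rfl fun S _ => ?_
    ring
  rw [sum_congr rfl fun w _ => h1 w, sum_comm, sum_div]
  refine sum_congr rfl fun S _ => ?_
  rw [← sum_mul]
  ring

theorem cutE_nonneg {Om : Type} [Fintype Om] {K : ℝ} (hK : 0 < K) {P : Om → ℝ}
    (hP : ∀ w, 0 ≤ P w) (h : Om → V → ℝ) (B : Finset V) {F : Finset V → ℝ} (hF : ∀ S, 0 ≤ F S) :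
    0 ≤ cutE K P h B F :=
  div_nonneg (sum_nonneg fun w _ => mul_nonneg (hP w) (cutI_nonneg hK.le _ _ hF)) (by linarith)

theorem pt_nonneg (S S' : Finset V) : 0 ≤ pt S S' := by
  unfold pt
  split_ifs <;> norm_num

theorem cutE_inter {Om : Type} [Fintype Om] (K : ℝ) (P : Om → ℝ) (h : Om → V → ℝ)
    {A B : Finset V} (hAB : A ⊆ B) (F : Finset V → ℝ) :
    cutE K P h B (fun S => F (S ∩ A)) = cutE K P h A F := by
  unfold cutE
  simp only [cutI_inter hAB]

/-- Consistency of the laws of level cuts. -/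
theorem cutE_step {Om Om' : Type} [Fintype Om] [Fintype Om'] {K : ℝ} {P : Om → ℝ}
    {P' : Om' → ℝ} {Q : Om → Om' → ℝ} (hQ : ∀ w w', 0 ≤ Q w w') (hQl : ∀ w, ∑ w', Q w w' = P w)
    (hQr : ∀ w', ∑ w, Q w w' = P' w') {h : Om → V → ℝ} {h' : Om' → V → ℝ} {A : Finset V}
    (hce : ∀ w', ∀ a ∈ A, ∑ w, Q w w' * h w a = P' w' * h' w' a)
    (hord : ∀ w', ∀ a ∈ A, ∀ b ∈ A, (∀ w, 0 < Q w w' → h w a ≤ h w b) ∨
      (∀ w, 0 < Q w w' → h w b ≤ h w a))
    (hb : ∀ w, ∀ a ∈ A, |h w a| ≤ K) (F : Finset V → ℝ) :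
    cutE K P h A F = cutE K P' h' A F := by
  unfold cutE
  congr 1
  have h1 : ∀ w', ∑ w, Q w w' * cutI K A (h w) F = P' w' * cutI K A (h' w') F := by
    intro w'
    have h2 := cutI_avg (K := K) (fun w => Q w w') (fun w => hQ w w') h (h' w') F A
      (fun a ha => by rw [hce w' a ha, hQr]) (hord w') (fun w _ a ha => hb w a ha)
    rw [hQr] at h2
    exact h2
  rw [← sum_congr rfl fun w' _ => h1 w', sum_comm]
  refine sum_congr rfl fun w _ => ?_
  rw [← sum_mul, hQl]

/-! ### The coupling -/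

/-- A cut as a Boolean function. -/
def toB (S : Finset V) : V → Bool := fun p => decide (p ∈ S)

/-- The mean of a function of the level cut (on all vertices) of the random function `g`. -/
noncomputable def mu {Om : Type} [Fintype Om] (K : ℝ) (P : Om → ℝ) (g : Om → V → ℝ)
    (h : (V → Bool) → ℝ) : ℝ := cutE K P g univ fun S => h (toB S)

theorem mu_dep {Om : Type} [Fintype Om] (K : ℝ) (P : Om → ℝ) (g : Om → V → ℝ) (B : Finset V)
    {h : (V → Bool) → ℝ} (hh : ∀ X X' : V → Bool, (∀ p ∈ B, X p = X' p) → h X = h X') :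
    mu K P g h = cutE K P g B fun S => h (toB S) := by
  rw [← cutE_inter K P g (subset_univ B) fun S => h (toB S)]
  unfold mu
  congr 1
  funext S
  refine hh _ _ fun p hp => ?_
  simp [toB, hp]

/-- Package P5b: from the fresh part `D` to a coupling of the bag laws along a root path in which
the cut at the new vertex is not a function of the cut on the first bag. -/
theorem coupling (n : ℕ) (Om : ℕ → Type) [∀ i, Fintype (Om i)]
    (P : ∀ i, Om i → ℝ) (Q : ∀ i, Om i → Om (i + 1) → ℝ)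
    (g D : ∀ i, Om i → V → ℝ) (B A : ℕ → Finset V) {K : ℝ} (hK : 0 < K)
    (hP : ∀ i ≤ n, ∀ w, 0 ≤ P i w)
    (hQ : ∀ i < n, ∀ w w', 0 ≤ Q i w w')
    (hQl : ∀ i < n, ∀ w, ∑ w', Q i w w' = P i w)
    (hQr : ∀ i < n, ∀ w', ∑ w, Q i w w' = P (i + 1) w')
    (hA : ∀ i < n, A (i + 1) ⊆ B i) (hA' : ∀ i < n, A (i + 1) ⊆ B (i + 1))
    (hg : ∀ i < n, ∀ w', ∀ a ∈ A (i + 1), ∑ w, Q i w w' * g i w a = P (i + 1) w' * g (i + 1) w' a)
    (hD : ∀ i < n, ∀ w', ∀ a ∈ A (i + 1), ∑ w, Q i w w' * D i w a = P (i + 1) w' * D (i + 1) w' a)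
    (hord : ∀ i < n, ∀ w', ∀ a ∈ A (i + 1), ∀ b ∈ A (i + 1),
      (∀ w, 0 < Q i w w' → g i w a ≤ g i w b) ∨ (∀ w, 0 < Q i w w' → g i w b ≤ g i w a))
    (hDg : ∀ i ≤ n, ∀ w, ∀ p ∈ B i, ∀ q ∈ B i, |D i w p - D i w q| ≤ |g i w p - g i w q|)
    (hD0 : ∀ w, ∀ p ∈ B 0, D 0 w p = 0)
    (hgK : ∀ i ≤ n, ∀ w, ∀ p ∈ B i, |g i w p| + |D i w p| ≤ K)
    (x : V) (hx : x ∈ B n) :
    ∃ (Om' : Type) (_ : Fintype Om') (P' : Om' → ℝ) (X : ℕ → Om' → V → Bool),
      (∀ w, 0 ≤ P' w) ∧
      (∀ i ≤ n, ∀ h : (V → Bool) → ℝ, (∀ X X' : V → Bool, (∀ p ∈ B i, X p = X' p) → h X = h X') →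
        ∑ w, P' w * h (X i w) = mu K (P i) (g i) h) ∧
      (∀ i < n, ∀ w, P' w ≠ 0 → ∀ a ∈ A (i + 1), X i w a = X (i + 1) w a) ∧
      (∀ f : (V → Bool) → Bool, (∑ w, P n w * D n w x) / (2 * K) ≤
        ∑ w, P' w * (if X n w x = f (X 0 w) then 0 else 1)) := by
  classical
  -- the random function of a sign
  set hs : ℝ → ∀ i, Om i → V → ℝ := fun s i w p => g i w p + s * D i w p with hhs
  have habs : ∀ s : ℝ, |s| ≤ 1 → ∀ i ≤ n, ∀ w, ∀ p ∈ B i, |hs s i w p| ≤ K := by
    intro s hs1 i hi w p hp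
    refine le_trans (abs_add_le _ _) (le_trans ?_ (hgK i hi w p hp))
    rw [abs_mul]
    nlinarith [abs_nonneg (D i w p), abs_nonneg s]
  have hmon : ∀ s : ℝ, |s| ≤ 1 → ∀ i ≤ n, ∀ w, ∀ p ∈ B i, ∀ q ∈ B i, g i w p ≤ g i w q →
      hs s i w p ≤ hs s i w q := by
    intro s hs1 i hi w p hp q hq hle
    have h1 := hDg i hi w q hq p hp
    rw [abs_of_nonneg (by linarith : 0 ≤ g i w q - g i w p)] at h1
    have h2 : |s * (D i w q - D i w p)| ≤ g i w q - g i w p := by
      rw [abs_mul]
      nlinarith [abs_nonneg (D i w q - D i w p), abs_nonneg s]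
    have h3 := neg_le_of_abs_le h2
    simp only [hhs]
    nlinarith
  have hcons : ∀ s : ℝ, |s| ≤ 1 → ∀ i < n, ∀ F : Finset V → ℝ,
      ∑ S, cutE K (P i) (hs s i) (B i) (pt S) * F (S ∩ A (i + 1)) =
        ∑ S, cutE K (P (i + 1)) (hs s (i + 1)) (B (i + 1)) (pt S) * F (S ∩ A (i + 1)) := by
    intro s hs1 i hi F
    rw [cutE_expand K (P i) (hs s i) (B i) fun S => F (S ∩ A (i + 1)),
      cutE_expand K (P (i + 1)) (hs s (i + 1)) (B (i + 1)) fun S => F (S ∩ A (i + 1)),
      cutE_inter _ _ _ (hA i hi), cutE_inter _ _ _ (hA' i hi)]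
    refine cutE_step (hQ i hi) (hQl i hi) (hQr i hi) ?_ ?_ ?_ F
    · intro w' a ha
      simp only [hhs, mul_add, sum_add_distrib]
      rw [hg i hi w' a ha]
      have h1 : ∀ w, Q i w w' * (s * D i w a) = s * (Q i w w' * D i w a) := fun w => by ring
      rw [sum_congr rfl fun w _ => h1 w, ← mul_sum, hD i hi w' a ha]
      ring
    · intro w' a ha b hb
      rcases hord i hi w' a ha b hb with h1 | h1
      · exact Or.inl fun w hw => hmon s hs1 i hi.le w a (hA i hi ha) b (hA i hi hb) (h1 w hw)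
      · exact Or.inr fun w hw => hmon s hs1 i hi.le w b (hA i hi hb) a (hA i hi ha) (h1 w hw)
    · intro w a ha
      exact habs s hs1 i hi.le w a (hA i hi ha)
  have hglue : ∀ s : ℝ, |s| ≤ 1 → _ := fun s hs1 =>
    glue_chain (fun i S => cutE K (P i) (hs s i) (B i) (pt S)) A n
      (fun i hi S => cutE_nonneg hK (hP i hi) _ _ (pt_nonneg S)) (hcons s hs1)
  obtain ⟨O1, _, W1, X1, a1, a2, a3⟩ := hglue 1 (by norm_num)
  obtain ⟨O2, _, W2, X2, b1, b2, b3⟩ := hglue (-1) (by norm_num)
  have a2' : ∀ i ≤ n, ∀ F : Finset V → ℝ,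
      ∑ w, W1 w * F (X1 i w) = cutE K (P i) (hs 1 i) (B i) F := fun i hi F => by
    rw [a2 i hi F]
    exact cutE_expand _ _ _ _ _
  have b2' : ∀ i ≤ n, ∀ F : Finset V → ℝ,
      ∑ w, W2 w * F (X2 i w) = cutE K (P i) (hs (-1) i) (B i) F := fun i hi F => by
    rw [b2 i hi F]
    exact cutE_expand _ _ _ _ _
  -- the average of the two signs
  have hav : ∀ i ≤ n, ∀ F : Finset V → ℝ,
      cutE K (P i) (hs 1 i) (B i) F + cutE K (P i) (hs (-1) i) (B i) F =
        2 * cutE K (P i) (g i) (B i) F := by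
    intro i hi F
    have h1 : ∀ w, cutI K (B i) (hs 1 i w) F + cutI K (B i) (hs (-1) i w) F =
        2 * cutI K (B i) (g i w) F := by
      intro w
      have h2 := cutI_avg (K := K) (fun _ : Bool => (1 : ℝ)) (fun _ => zero_le_one)
        (fun b : Bool => hs (if b then 1 else -1) i w) (g i w) F (B i)
        (fun a _ => by simp [hhs]; ring)
        (fun a ha b hb => by
          have hs1 : ∀ c : Bool, |(if c then (1 : ℝ) else -1)| ≤ 1 := by
            intro c
            cases c <;> norm_num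
          rcases le_total (g i w a) (g i w b) with h | h
          · exact Or.inl fun c _ => hmon _ (hs1 c) i hi w a ha b hb h
          · exact Or.inr fun c _ => hmon _ (hs1 c) i hi w b hb a ha h)
        (fun c _ a ha => habs _ (by cases c <;> norm_num) i hi w a ha)
      simp only [Fintype.sum_bool, one_mul, if_true, Bool.false_eq_true, if_false] at h2
      rw [h2]
      norm_num
    unfold cutE
    rw [← add_div, ← sum_add_distrib, ← mul_div_assoc, mul_sum]
    congr 1
    refine sum_congr rfl fun w _ => ?_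
    rw [← mul_add, h1 w]
    ring
  refine ⟨O1 ⊕ O2, inferInstance, Sum.elim (fun w => W1 w / 2) (fun w => W2 w / 2),
    fun i => Sum.elim (fun w => toB (X1 i w)) (fun w => toB (X2 i w)), ?_, ?_, ?_, ?_⟩
  · rintro (w | w)
    · exact div_nonneg (a1 w) (by norm_num)
    · exact div_nonneg (b1 w) (by norm_num)
  · intro i hi h hh
    rw [Fintype.sum_sum_type, mu_dep K (P i) (g i) (B i) hh]
    simp only [Sum.elim_inl, Sum.elim_inr]
    have h1 : ∀ w, W1 w / 2 * h (toB (X1 i w)) = W1 w * h (toB (X1 i w)) / 2 := fun w => by ring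
    have h2 : ∀ w, W2 w / 2 * h (toB (X2 i w)) = W2 w * h (toB (X2 i w)) / 2 := fun w => by ring
    rw [sum_congr rfl fun w _ => h1 w, sum_congr rfl fun w _ => h2 w, ← sum_div, ← sum_div,
      a2' i hi fun S => h (toB S), b2' i hi fun S => h (toB S)]
    have h3 := hav i hi fun S => h (toB S)
    linarith
  · rintro i hi (w | w) hw a ha
    · have h1 : W1 w ≠ 0 := by
        intro h2
        apply hw
        simp [h2]
      have h3 := a3 i hi w h1
      simp only [Sum.elim_inl, toB]
      have h4 : a ∈ X1 i w ↔ a ∈ X1 (i + 1) w := by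
        have h5 := congrArg (fun S => a ∈ S) h3
        simpa [ha] using h5
      simp [h4]
    · have h1 : W2 w ≠ 0 := by
        intro h2
        apply hw
        simp [h2]
      have h3 := b3 i hi w h1
      simp only [Sum.elim_inr, toB]
      have h4 : a ∈ X2 i w ↔ a ∈ X2 (i + 1) w := by
        have h5 := congrArg (fun S => a ∈ S) h3
        simpa [ha] using h5
      simp [h4]
  · intro f
    rw [Fintype.sum_sum_type]
    change (∑ w, P n w * D n w x) / (2 * K) ≤
      (∑ w : O1, W1 w / 2 * (if toB (X1 n w) x = f (toB (X1 0 w)) then 0 else 1)) +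
        ∑ w : O2, W2 w / 2 * (if toB (X2 n w) x = f (toB (X2 0 w)) then 0 else 1)
    -- the masses of the new vertex
    have hm1 : ∑ w, W1 w * (if x ∈ X1 n w then 1 else 0) =
        (∑ w, P n w * (g n w x + 1 * D n w x + K)) / (2 * K) := by
      rw [a2' n le_rfl fun S => if x ∈ S then 1 else 0]
      unfold cutE
      congr 1
      refine sum_congr rfl fun w _ => ?_
      rw [cutI_mem hx (habs 1 (by norm_num) n le_rfl w x hx)]
    have hm2 : ∑ w, W2 w * (if x ∈ X2 n w then 1 else 0) =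
        (∑ w, P n w * (g n w x + (-1) * D n w x + K)) / (2 * K) := by
      rw [b2' n le_rfl fun S => if x ∈ S then 1 else 0]
      unfold cutE
      congr 1
      refine sum_congr rfl fun w _ => ?_
      rw [cutI_mem hx (habs (-1) (by norm_num) n le_rfl w x hx)]
    -- the law on the first bag does not depend on the sign
    have h0 : ∑ w, W1 w * (if f (toB (X1 0 w)) = true then 1 else 0) =
        ∑ w, W2 w * (if f (toB (X2 0 w)) = true then 1 else 0) := by
      rw [a2' 0 (Nat.zero_le n) fun S : Finset V => if f (toB S) = true then (1 : ℝ) else 0,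
        b2' 0 (Nat.zero_le n) fun S : Finset V => if f (toB S) = true then (1 : ℝ) else 0]
      unfold cutE
      congr 1
      refine sum_congr rfl fun w _ => ?_
      congr 1
      refine cutI_congr_fun (V := V) (fun p hp => ?_) _
      simp only [hhs]
      rw [hD0 w p hp]
      ring
    have h1 : ∑ w, P n w * D n w x / (2 * K) * 2 =
        ∑ w, W1 w * (if x ∈ X1 n w then 1 else 0) - ∑ w, W2 w * (if x ∈ X2 n w then 1 else 0) := by
      rw [hm1, hm2, ← sub_div, ← sum_sub_distrib, sum_div]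
      refine sum_congr rfl fun w _ => ?_
      ring
    have h2 : ∑ w, W1 w * (if x ∈ X1 n w then (1 : ℝ) else 0) ≤
        ∑ w, W1 w * (if toB (X1 n w) x = f (toB (X1 0 w)) then 0 else 1) +
          ∑ w, W1 w * (if f (toB (X1 0 w)) = true then 1 else 0) := by
      rw [← sum_add_distrib]
      refine sum_le_sum fun w _ => ?_
      rw [← mul_add]
      refine mul_le_mul_of_nonneg_left ?_ (a1 w)
      unfold toB
      by_cases h3 : x ∈ X1 n w
      · by_cases h4 : f (fun p => decide (p ∈ X1 0 w)) = true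
        · simp [h3, h4]
        · simp [h3, h4]
      · by_cases h4 : f (fun p => decide (p ∈ X1 0 w)) = true
        · simp [h3, h4]
        · simp [h3, h4]
    have h3 : ∑ w, W2 w * (if f (toB (X2 0 w)) = true then 1 else 0) ≤
        ∑ w, W2 w * (if toB (X2 n w) x = f (toB (X2 0 w)) then 0 else 1) +
          ∑ w, W2 w * (if x ∈ X2 n w then (1 : ℝ) else 0) := by
      rw [← sum_add_distrib]
      refine sum_le_sum fun w _ => ?_
      rw [← mul_add]
      refine mul_le_mul_of_nonneg_left ?_ (b1 w)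
      unfold toB
      by_cases h3 : x ∈ X2 n w
      · by_cases h4 : f (fun p => decide (p ∈ X2 0 w)) = true
        · simp [h3, h4]
        · simp [h3, h4]
      · by_cases h4 : f (fun p => decide (p ∈ X2 0 w)) = true
        · simp [h3, h4]
        · simp [h3, h4]
    have h4 : ∀ w, W1 w / 2 * (if toB (X1 n w) x = f (toB (X1 0 w)) then (0 : ℝ) else 1) =
        W1 w * (if toB (X1 n w) x = f (toB (X1 0 w)) then (0 : ℝ) else 1) / 2 := fun w => by ring
    have h5 : ∀ w, W2 w / 2 * (if toB (X2 n w) x = f (toB (X2 0 w)) then (0 : ℝ) else 1) =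
        W2 w * (if toB (X2 n w) x = f (toB (X2 0 w)) then (0 : ℝ) else 1) / 2 := fun w => by ring
    rw [sum_congr rfl fun w _ => h4 w, sum_congr rfl fun w _ => h5 w, ← sum_div, ← sum_div]
    rw [← sum_mul, ← sum_div] at h1
    linarith

end Vale.Agent.P235.H485
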