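import Mathlib

/-!
P235, bounded treewidth (plan #9610): level cuts of functions, and the transparency lemma L3.
-/

namespace Vale.Agent.P235.H485

open Finset MeasureTheory

variable {V : Type} [Fintype V] [DecidableEq V]

open Classical in
/-- The level cut of `h` at the level `T`, on the set `A`. -/
noncomputable def cut (A : Finset V) (h : V → ℝ) (T : ℝ) : Finset V := A.filter fun p => T ≤ h p

/-- The integral of a function of the level cut, over the levels between `-K` and `K`. -/
noncomputable def cutI (K : ℝ) (A : Finset V) (h : V → ℝ) (F : Finset V → ℝ) : ℝ :=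
  ∫ T in (-K)..K, F (cut A h T)

theorem mem_cut {A : Finset V} {h : V → ℝ} {T : ℝ} {p : V} : p ∈ cut A h T ↔ p ∈ A ∧ T ≤ h p := by
  unfold cut
  rw [mem_filter]

theorem cut_subset (A : Finset V) (h : V → ℝ) (T : ℝ) : cut A h T ⊆ A := filter_subset _ _

theorem cut_inter {A B : Finset V} (hAB : A ⊆ B) (h : V → ℝ) (T : ℝ) :
    cut B h T ∩ A = cut A h T := by
  ext p
  simp only [mem_inter, mem_cut]
  constructor
  · rintro ⟨⟨_, h2⟩, h3⟩
    exact ⟨h3, h2⟩
  · rintro ⟨h1, h2⟩
    exact ⟨⟨hAB h1, h2⟩, h1⟩

theorem measurable_comp_cut (A : Finset V) (h : V → ℝ) (F : Finset V → ℝ) :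
    Measurable fun T => F (cut A h T) := by
  letI : MeasurableSpace (Finset V) := ⊤
  have h1 : Measurable fun T => cut A h T := by
    refine measurable_to_countable' fun S => ?_
    have h2 : (fun T => cut A h T) ⁻¹' {S} = ⋂ p : V, {T : ℝ | (p ∈ A ∧ T ≤ h p) ↔ p ∈ S} := by
      ext T
      simp only [Set.mem_preimage, Set.mem_singleton_iff, Set.mem_iInter, Set.mem_setOf_eq]
      constructor
      · intro h3 p
        rw [← h3, mem_cut]
      · intro h3
        ext p
        rw [mem_cut, h3]
    rw [h2]
    refine MeasurableSet.iInter fun p => ?_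
    by_cases hA : p ∈ A
    · by_cases hS : p ∈ S
      · simp only [hA, hS, true_and, iff_true]
        exact measurableSet_Iic
      · simp only [hA, hS, true_and, iff_false, not_le]
        exact measurableSet_Ioi
    · by_cases hS : p ∈ S
      · simp [hA, hS]
      · simp [hA, hS]
  exact (measurable_from_top (f := F)).comp h1

theorem intervalIntegrable_cut (A : Finset V) (h : V → ℝ) (F : Finset V → ℝ) (a b : ℝ) :
    IntervalIntegrable (fun T => F (cut A h T)) volume a b := by
  rw [intervalIntegrable_iff]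
  have h1 : IntegrableOn (fun _ : ℝ => ∑ S : Finset V, |F S|) (Set.uIoc a b) := by
    rw [← intervalIntegrable_iff]
    exact intervalIntegrable_const
  refine h1.mono' (measurable_comp_cut A h F).aestronglyMeasurable (ae_of_all _ fun T => ?_)
  rw [Real.norm_eq_abs]
  exact single_le_sum (f := fun S => |F S|) (fun _ _ => abs_nonneg _) (mem_univ _)

theorem cutI_add (K : ℝ) (A : Finset V) (h : V → ℝ) (F G : Finset V → ℝ) :
    cutI K A h (fun S => F S + G S) = cutI K A h F + cutI K A h G :=
  intervalIntegral.integral_add (intervalIntegrable_cut A h F _ _) (intervalIntegrable_cut A h G _ _)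

theorem cutI_const_mul (K : ℝ) (A : Finset V) (h : V → ℝ) (c : ℝ) (F : Finset V → ℝ) :
    cutI K A h (fun S => c * F S) = c * cutI K A h F :=
  intervalIntegral.integral_const_mul _ _

theorem cutI_sum {ι : Type} (s : Finset ι) (K : ℝ) (A : Finset V) (h : V → ℝ)
    (F : ι → Finset V → ℝ) :
    cutI K A h (fun S => ∑ i ∈ s, F i S) = ∑ i ∈ s, cutI K A h (F i) :=
  intervalIntegral.integral_finset_sum fun i _ => intervalIntegrable_cut A h (F i) _ _

theorem cutI_const (K : ℝ) (A : Finset V) (h : V → ℝ) (c : ℝ) :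
    cutI K A h (fun _ => c) = 2 * K * c := by
  unfold cutI
  rw [intervalIntegral.integral_const, smul_eq_mul]
  ring

theorem cutI_nonneg {K : ℝ} (hK : 0 ≤ K) (A : Finset V) (h : V → ℝ) {F : Finset V → ℝ}
    (hF : ∀ S, 0 ≤ F S) : 0 ≤ cutI K A h F :=
  intervalIntegral.integral_nonneg (by linarith) fun _ _ => hF _

theorem cutI_mono {K : ℝ} (hK : 0 ≤ K) (A : Finset V) (h : V → ℝ) {F G : Finset V → ℝ}
    (hF : ∀ S, F S ≤ G S) : cutI K A h F ≤ cutI K A h G :=
  intervalIntegral.integral_mono_on (by linarith) (intervalIntegrable_cut A h F _ _)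
    (intervalIntegrable_cut A h G _ _) fun _ _ => hF _

theorem cutI_congr_fun {K : ℝ} {A : Finset V} {h h' : V → ℝ} (hh : ∀ p ∈ A, h p = h' p)
    (F : Finset V → ℝ) : cutI K A h F = cutI K A h' F := by
  have h1 : ∀ T, cut A h T = cut A h' T := by
    intro T
    ext p
    simp only [mem_cut]
    constructor
    · rintro ⟨h2, h3⟩
      exact ⟨h2, by rw [← hh p h2]; exact h3⟩
    · rintro ⟨h2, h3⟩
      exact ⟨h2, by rw [hh p h2]; exact h3⟩
  unfold cutI
  simp only [h1]

/-- Restriction of the level cut to a smaller set. -/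
theorem cutI_inter {A B : Finset V} (hAB : A ⊆ B) (K : ℝ) (h : V → ℝ) (F : Finset V → ℝ) :
    cutI K B h (fun S => F (S ∩ A)) = cutI K A h F := by
  unfold cutI
  simp only [cut_inter hAB]

theorem cutI_empty (K : ℝ) (h : V → ℝ) (F : Finset V → ℝ) :
    cutI K ∅ h F = 2 * K * F ∅ := by
  have h1 : ∀ T, cut (∅ : Finset V) h T = ∅ := fun T => subset_empty.mp (cut_subset _ _ _)
  unfold cutI
  simp only [h1]
  rw [intervalIntegral.integral_const, smul_eq_mul]
  ring

/-- Adding a vertex at the bottom. -/
theorem cutI_insert {K : ℝ} {A : Finset V} {h : V → ℝ} (F : Finset V → ℝ) {a : V} (ha : a ∉ A)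
    (hle : ∀ b ∈ A, h a ≤ h b) (h1 : -K ≤ h a) (h2 : h a ≤ K) :
    cutI K (insert a A) h F = cutI K A h F + (h a + K) * (F (insert a A) - F A) := by
  have e1 : ∀ B : Finset V, cutI K B h F =
      (∫ T in (-K)..(h a), F (cut B h T)) + ∫ T in (h a)..K, F (cut B h T) := fun B =>
    (intervalIntegral.integral_add_adjacent_intervals (intervalIntegrable_cut B h F _ _)
      (intervalIntegrable_cut B h F _ _)).symm
  have e2 : (∫ T in (-K)..(h a), F (cut (insert a A) h T)) = (h a + K) * F (insert a A) := by
    have : (∫ T in (-K)..(h a), F (cut (insert a A) h T)) =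
        ∫ _ in (-K)..(h a), F (insert a A) := by
      refine intervalIntegral.integral_congr_ae (ae_of_all _ fun T hT => ?_)
      rw [Set.uIoc_of_le h1] at hT
      have : cut (insert a A) h T = insert a A := by
        ext p
        rw [mem_cut, and_iff_left_iff_imp, mem_insert]
        rintro (rfl | hp)
        · exact hT.2
        · exact hT.2.trans (hle p hp)
      rw [this]
    rw [this, intervalIntegral.integral_const, smul_eq_mul]
    ring
  have e3 : (∫ T in (-K)..(h a), F (cut A h T)) = (h a + K) * F A := by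
    have : (∫ T in (-K)..(h a), F (cut A h T)) = ∫ _ in (-K)..(h a), F A := by
      refine intervalIntegral.integral_congr_ae (ae_of_all _ fun T hT => ?_)
      rw [Set.uIoc_of_le h1] at hT
      have : cut A h T = A := by
        ext p
        rw [mem_cut, and_iff_left_iff_imp]
        intro hp
        exact hT.2.trans (hle p hp)
      rw [this]
    rw [this, intervalIntegral.integral_const, smul_eq_mul]
    ring
  have e4 : (∫ T in (h a)..K, F (cut (insert a A) h T)) = ∫ T in (h a)..K, F (cut A h T) := by
    refine intervalIntegral.integral_congr_ae (ae_of_all _ fun T hT => ?_)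
    rw [Set.uIoc_of_le h2] at hT
    have : cut (insert a A) h T = cut A h T := by
      ext p
      rw [mem_cut, mem_cut, mem_insert]
      constructor
      · rintro ⟨rfl | h3, h4⟩
        · exact absurd h4 (not_le.mpr hT.1)
        · exact ⟨h3, h4⟩
      · rintro ⟨h3, h4⟩
        exact ⟨Or.inr h3, h4⟩
    rw [this]
  rw [e1, e1, e2, e3, e4]
  ring

/-- L3: on a cell on which the order of the values on `A` is constant, the integrals over the
level cuts on `A` average like the function. -/
theorem cutI_avg {ι : Type} [Fintype ι] {K : ℝ} (q : ι → ℝ) (hq : ∀ w, 0 ≤ q w)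
    (hh : ι → V → ℝ) (hbar : V → ℝ) (F : Finset V → ℝ) (A : Finset V)
    (hce : ∀ a ∈ A, ∑ w, q w * hh w a = (∑ w, q w) * hbar a)
    (hord : ∀ a ∈ A, ∀ b ∈ A, (∀ w, 0 < q w → hh w a ≤ hh w b) ∨
      (∀ w, 0 < q w → hh w b ≤ hh w a))
    (hb : ∀ w, 0 < q w → ∀ a ∈ A, |hh w a| ≤ K) :
    ∑ w, q w * cutI K A (hh w) F = (∑ w, q w) * cutI K A hbar F := by
  rcases (sum_nonneg fun w _ => hq w : (0 : ℝ) ≤ ∑ w, q w).eq_or_lt with hQ | hQ
  · have h1 : ∀ w, q w = 0 := fun w =>
      (sum_eq_zero_iff_of_nonneg fun w _ => hq w).mp hQ.symm w (mem_univ w)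
    simp [h1]
  induction hn : #A generalizing A with
  | zero =>
    rw [card_eq_zero] at hn
    subst hn
    simp only [cutI_empty]
    rw [sum_mul]
  | succ n ih =>
    have hne : A.Nonempty := card_pos.mp (by omega)
    obtain ⟨a, ha, hmin⟩ := exists_min_image A hbar hne
    have hbarle : ∀ a ∈ A, ∀ b ∈ A, (∀ w, 0 < q w → hh w a ≤ hh w b) → hbar a ≤ hbar b := by
      intro a ha b hb h1
      have h2 : ∑ w, q w * hh w a ≤ ∑ w, q w * hh w b := by
        refine sum_le_sum fun w _ => ?_
        rcases (hq w).eq_or_lt with h3 | h3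
        · simp [← h3]
        · exact mul_le_mul_of_nonneg_left (h1 w h3) h3.le
      rw [hce a ha, hce b hb] at h2
      exact le_of_mul_le_mul_left h2 hQ
    have hlow : ∀ b ∈ A, ∀ w, 0 < q w → hh w a ≤ hh w b := by
      intro b hbA
      rcases hord a ha b hbA with h1 | h1
      · exact h1
      · have h2 : hbar b = hbar a := le_antisymm (hbarle b hbA a ha h1) (hmin b hbA)
        have h3 : ∑ w, q w * (hh w a - hh w b) = 0 := by
          simp only [mul_sub, sum_sub_distrib]
          rw [hce a ha, hce b hbA, h2, sub_self]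
        have h4 : ∀ w ∈ univ, 0 ≤ q w * (hh w a - hh w b) := by
          intro w _
          rcases (hq w).eq_or_lt with h5 | h5
          · simp [← h5]
          · exact mul_nonneg h5.le (sub_nonneg.mpr (h1 w h5))
        intro w hw
        have h5 := (sum_eq_zero_iff_of_nonneg h4).mp h3 w (mem_univ w)
        rcases mul_eq_zero.mp h5 with h6 | h6
        · exact absurd h6 hw.ne'
        · linarith
    have hins : insert a (A.erase a) = A := insert_erase ha
    have hbarK : |hbar a| ≤ K := by
      have h1 : |(∑ w, q w) * hbar a| ≤ (∑ w, q w) * K := by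
        rw [← hce a ha, sum_mul]
        refine (abs_sum_le_sum_abs _ _).trans (sum_le_sum fun w _ => ?_)
        rw [abs_mul, abs_of_nonneg (hq w)]
        rcases (hq w).eq_or_lt with h5 | h5
        · simp [← h5]
        · exact mul_le_mul_of_nonneg_left (hb w h5 a ha) h5.le
      rw [abs_mul, abs_of_pos hQ] at h1
      exact le_of_mul_le_mul_left h1 hQ
    have hrec := ih (A.erase a) (fun b hb => hce b (mem_of_mem_erase hb))
      (fun b hb c hc => hord b (mem_of_mem_erase hb) c (mem_of_mem_erase hc))
      (fun w hw b hb' => hb w hw b (mem_of_mem_erase hb')) (by rw [card_erase_of_mem ha]; omega)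
    have hs1 : ∀ w, q w * cutI K A (hh w) F = q w * cutI K (A.erase a) (hh w) F +
        (q w * hh w a + q w * K) * (F A - F (A.erase a)) := by
      intro w
      rcases (hq w).eq_or_lt with h5 | h5
      · simp [← h5]
      · have h6 := abs_le.mp (hb w h5 a ha)
        have h7 := cutI_insert (K := K) F (notMem_erase a A)
          (fun b hb => hlow b (mem_of_mem_erase hb) w h5) h6.1 h6.2
        rw [hins] at h7
        rw [h7]
        ring
    have hs2 : cutI K A hbar F = cutI K (A.erase a) hbar F +
        (hbar a + K) * (F A - F (A.erase a)) := by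
      have h6 := abs_le.mp hbarK
      have h7 := cutI_insert (K := K) F (notMem_erase a A)
        (fun b hb => hmin b (mem_of_mem_erase hb)) h6.1 h6.2
      rw [hins] at h7
      exact h7
    rw [sum_congr rfl fun w _ => hs1 w, sum_add_distrib, hrec, ← sum_mul, sum_add_distrib,
      hce a ha, ← sum_mul, hs2]
    ring

/-- The mass of the cuts containing a vertex. -/
theorem cutI_mem {K : ℝ} {A : Finset V} {h : V → ℝ} {x : V} (hx : x ∈ A) (hK : |h x| ≤ K) :
    cutI K A h (fun S => if x ∈ S then 1 else 0) = h x + K := by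
  have hsub : ({x} : Finset V) ⊆ A := singleton_subset_iff.mpr hx
  have h1 := cutI_inter hsub K h fun S => if x ∈ S then 1 else 0
  have h2 : (fun S : Finset V => if x ∈ S ∩ {x} then (1 : ℝ) else 0) =
      fun S => if x ∈ S then 1 else 0 := by
    funext S
    simp
  rw [h2] at h1
  rw [h1]
  have h3 := abs_le.mp hK
  have h4 := cutI_insert (K := K) (A := ∅) (h := h) (fun S => if x ∈ S then (1 : ℝ) else 0)
    (notMem_empty x) (fun b hb => absurd hb (notMem_empty b)) h3.1 h3.2
  rw [insert_empty_eq, cutI_empty] at h4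
  rw [h4]
  simp

/-- The mass of the cuts separating two vertices. -/
theorem cutI_ne {K : ℝ} {A : Finset V} {h : V → ℝ} {x y : V} (hx : x ∈ A) (hy : y ∈ A)
    (hxK : |h x| ≤ K) (hyK : |h y| ≤ K) :
    cutI K A h (fun S => if (x ∈ S ↔ y ∈ S) then 0 else 1) = |h x - h y| := by
  have key : ∀ x y : V, x ∈ A → y ∈ A → |h x| ≤ K → |h y| ≤ K → h x ≤ h y →
      cutI K A h (fun S => if (x ∈ S ↔ y ∈ S) then 0 else 1) = h y - h x := by
    intro x y hx hy hxK hyK hle
    have h1 : cutI K A h (fun S => if (x ∈ S ↔ y ∈ S) then 0 else 1) =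
        cutI K A h (fun S => (if y ∈ S then (1 : ℝ) else 0) + (-1) * if x ∈ S then 1 else 0) := by
      unfold cutI
      refine intervalIntegral.integral_congr fun T _ => ?_
      by_cases h2 : x ∈ cut A h T
      · have h3 : y ∈ cut A h T := by
          rw [mem_cut] at h2 ⊢
          exact ⟨hy, h2.2.trans hle⟩
        simp [h2, h3]
      · by_cases h3 : y ∈ cut A h T
        · simp [h2, h3]
        · simp [h2, h3]
    rw [h1, cutI_add, cutI_const_mul, cutI_mem hy hyK, cutI_mem hx hxK]
    ring
  rcases le_total (h x) (h y) with hle | hle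
  · rw [key x y hx hy hxK hyK hle, abs_sub_comm, abs_of_nonneg (by linarith)]
  · rw [abs_of_nonneg (by linarith : 0 ≤ h x - h y), ← key y x hy hx hyK hxK hle]
    congr 1
    funext S
    simp only [iff_comm]

end Vale.Agent.P235.H485
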