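import Vale.Agent.P235.H485.CoupChain
import Vale.Agent.P235.H684.Guess
import Vale.Agent.P235.H265.Proc

/-!
# From the process to the laws of the cuts on the bags

The law of the level cut of the random function of a node, the consistency of these laws, the mass
of the pairs of a bag, and the coupling along every path of the elimination tree.
-/

namespace Vale.Agent.P235.H485

open Finset Vale.Agent.P235.H684

variable {n : ℕ}

section law

variable {Om : Type} [Fintype Om]

/-- The law of the level cut of a random function on `Fin n`. -/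
noncomputable def law (K : ℝ) (P : Om → ℝ) (g : Om → Fin n → ℝ) (X : Fin n → Bool) : ℝ :=
  mu K P g fun Y => if Y = X then 1 else 0

theorem Ex_law (K : ℝ) (P : Om → ℝ) (g : Om → Fin n → ℝ) (h : (Fin n → Bool) → ℝ) :
    Ex (law K P g) h = mu K P g h := by
  unfold Ex law mu cutE
  have h1 : ∀ X : Fin n → Bool, (∑ w, P w * cutI K univ (g w)
      (fun S => if toB S = X then (1 : ℝ) else 0)) / (2 * K) * h X =
      (∑ w, P w * cutI K univ (g w) (fun S => h X * (if toB S = X then (1 : ℝ) else 0))) /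
        (2 * K) := by
    intro X
    rw [div_mul_eq_mul_div, sum_mul]
    congr 1
    refine sum_congr rfl fun w _ => ?_
    rw [cutI_const_mul]
    ring
  rw [sum_congr rfl fun X _ => h1 X, ← sum_div, sum_comm]
  congr 1
  refine sum_congr rfl fun w _ => ?_
  rw [← mul_sum, ← cutI_sum]
  congr 2
  funext S
  simp

theorem law_isLaw {K : ℝ} (hK : 0 < K) {P : Om → ℝ} (hP : ∀ w, 0 ≤ P w) (h1 : ∑ w, P w = 1)
    (g : Om → Fin n → ℝ) : IsLaw (law K P g) := by
  constructor
  · intro X
    refine cutE_nonneg hK hP _ _ fun S => ?_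
    dsimp only
    split_ifs <;> norm_num
  · have h2 := Ex_law K P g fun _ => 1
    unfold Ex at h2
    simp only [mul_one] at h2
    rw [h2]
    unfold mu cutE
    have h3 : ∀ w, P w * cutI K univ (g w) (fun _ => (1 : ℝ)) = P w * (2 * K) := by
      intro w
      rw [cutI_const, mul_one]
    rw [sum_congr rfl fun w _ => h3 w, ← sum_mul, h1, one_mul, div_self (by positivity)]

theorem law_pair {K : ℝ} {P : Om → ℝ} {g : Om → Fin n → ℝ} (hg : ∀ w p, |g w p| ≤ K)
    (p q : Fin n) :
    Ex (law K P g) (fun X => if X p = X q then 0 else 1) =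
      (∑ w, P w * |g w p - g w q|) / (2 * K) := by
  rw [Ex_law]
  unfold mu cutE
  congr 1
  refine sum_congr rfl fun w _ => ?_
  congr 1
  rw [← cutI_ne (K := K) (mem_univ p) (mem_univ q) (hg w p) (hg w q)]
  congr 1
  funext S
  have h1 : (toB S p = toB S q) ↔ (p ∈ S ↔ q ∈ S) := by
    unfold toB
    exact decide_eq_decide
  dsimp only
  by_cases h2 : p ∈ S ↔ q ∈ S
  · rw [if_pos h2, if_pos (h1.mpr h2)]
  · rw [if_neg h2, if_neg fun h3 => h2 (h1.mp h3)]

end law

open Vale.Agent.P235.H265 in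
/-- The laws of the process. -/
noncomputable def muR {d : Fin n → Fin n → ℝ} {par : Fin n → Fin n} {root : Fin n → Prop}
    {A : Fin n → Finset (Fin n)} {κ ε : ℝ} (R : Proc (Fin n) d par root A κ ε) (K : ℝ)
    (t : Fin n) : (Fin n → Bool) → ℝ := law K (R.P t) (R.g t)

section proc

open Vale.Agent.P235.H265

variable {E : Elim n} {d : Fin n → Fin n → ℝ} {root : Fin n → Prop} {κ ε : ℝ}
  (R : Proc (Fin n) d E.par root E.A κ ε)

theorem ord_or {t : Fin n} (ht : ¬ root t) (o' : R.O) {a b : Fin n} (ha : a ∈ E.A t)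
    (hb : b ∈ E.A t) :
    (∀ o, 0 < R.Q t o o' → R.g (E.par t) o a ≤ R.g (E.par t) o b) ∨
      (∀ o, 0 < R.Q t o o' → R.g (E.par t) o b ≤ R.g (E.par t) o a) := by
  rcases le_total (R.g t o' a) (R.g t o' b) with h | h
  · exact Or.inl fun o ho => (R.ord t ht o o' ho.ne' a ha b hb).mpr h
  · exact Or.inr fun o ho => (R.ord t ht o o' ho.ne' b hb a ha).mpr h

theorem muR_isLaw {K : ℝ} (hK : 0 < K) (t : Fin n) : IsLaw (muR R K t) :=
  law_isLaw hK (R.P_nonneg t) (R.P_sum t) (R.g t)

theorem muR_cons {K : ℝ} (hroot : ∀ t, E.par t ≠ t → ¬ root t)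
    (hg : ∀ t o p, |R.g t o p| ≤ K) : Cons E (muR R K) := by
  intro t ht' h hh
  have ht := hroot t ht'
  unfold muR
  rw [Ex_law, Ex_law, mu_dep K (R.P t) (R.g t) (E.A t) (fun X X' hX => hh X X' hX),
    mu_dep K (R.P (E.par t)) (R.g (E.par t)) (E.A t) (fun X X' hX => hh X X' hX)]
  exact (cutE_step (R.Q_nonneg t) (R.Q_left t ht) (R.Q_right t ht)
    (fun o' a ha => R.ce t ht a ha o') (fun o' a ha b hb => ord_or R ht o' ha hb)
    (fun o a _ => hg _ _ _) _).symm

theorem muR_pair {K : ℝ} (hg : ∀ t o p, |R.g t o p| ≤ K) (t p q : Fin n) :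
    Ex (muR R K t) (fun X => if X p = X q then 0 else 1) =
      (∑ o, R.P t o * |R.g t o p - R.g t o q|) / (2 * K) :=
  law_pair (hg t) p q

theorem muR_le {K : ℝ} (hK : 0 < K) (hg : ∀ t o p, |R.g t o p| ≤ K) (hd : ∀ p q, 0 ≤ d p q)
    (t p q : Fin n) :
    2 * K * Ex (muR R K t) (fun X => if X p = X q then 0 else 1) ≤ d p q := by
  rw [muR_pair R hg, mul_div_cancel₀ _ (by positivity)]
  have h1 := R.dd t |>.mean_abs hd p q
  have h2 := hd p q
  linarith

theorem muR_ge {K : ℝ} (hK : 0 < K) (hg : ∀ t o p, |R.g t o p| ≤ K) (hd : ∀ p q, 0 ≤ d p q)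
    (hκ : 0 ≤ κ) {t p q : Fin n} (hp : p ∈ E.B t) (hq : q ∈ E.B t) :
    κ * (1 - ε) * d p q ≤ 2 * K * Ex (muR R K t) (fun X => if X p = X q then 0 else 1) := by
  rw [muR_pair R hg, mul_div_cancel₀ _ (by positivity)]
  have h1 := R.ac t p hp q hq
  have h2 : ∀ o, κ * d p q * (R.P t o - (if |R.g t o p - R.g t o q| < κ * d p q then R.P t o
      else 0)) ≤ R.P t o * |R.g t o p - R.g t o q| := by
    intro o
    have h3 := R.P_nonneg t o
    split_ifs with h
    · rw [sub_self, mul_zero]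
      exact mul_nonneg h3 (abs_nonneg _)
    · rw [sub_zero, mul_comm (κ * d p q)]
      exact mul_le_mul_of_nonneg_left (not_lt.mp h) h3
  refine le_trans ?_ (sum_le_sum fun o _ => h2 o)
  rw [← mul_sum, sum_sub_distrib, R.P_sum]
  have h4 : 0 ≤ κ * d p q := mul_nonneg hκ (hd p q)
  nlinarith

theorem path_len {q : ℕ → Fin n} {N : ℕ} (hp : Path E q N) : N < n := by
  have h1 : ∀ i ≤ N, i ≤ (q i : ℕ) := by
    intro i
    induction i with
    | zero => intro _; exact Nat.zero_le _
    | succ i ih =>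
      intro hi
      have h2 := ih (by omega)
      have h3 := E.par_le (q (i + 1))
      rw [hp.par i hi] at h3
      have h4 : (q i : ℕ) < q (i + 1) := lt_of_le_of_ne h3 (fun h => hp.ne i hi (Fin.ext h))
      omega
  exact lt_of_le_of_lt (h1 N le_rfl) (q N).2

/-- the chain of environments along a path -/
noncomputable def chain {q : ℕ → Fin n} {N : ℕ} (hp : Path E q N)
    (hroot : ∀ t, E.par t ≠ t → ¬ root t) (hne : ∀ t, E.par t ≠ t → (E.A t).Nonempty) : H926.PathChain.{0, 0} (Fin n) N where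
  Ω := fun _ => R.O
  fin := fun _ => R.fO
  P := fun i => R.P (q i)
  Q := fun i => R.Q (q (i + 1))
  g := fun i => R.g (q i)
  A := fun i => E.A (q i)
  B := fun i => E.B (q i)
  z := q
  P_nonneg := fun i => R.P_nonneg (q i)
  P_sum := fun i => R.P_sum (q i)
  Q_nonneg := fun i => R.Q_nonneg (q (i + 1))
  Q_left := fun i hi o => by
    have h1 := hroot (q (i + 1)) (by
      rw [hp.par i hi]
      exact hp.ne i hi)
    rw [R.Q_left _ h1, hp.par i hi]
  Q_right := fun i hi o' => by
    have h1 := hroot (q (i + 1)) (by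
      rw [hp.par i hi]
      exact hp.ne i hi)
    rw [R.Q_right _ h1]
  A_sub := fun i hi => hp.A_sub hi
  B_succ := fun i hi => rfl
  z_notMem := fun i hi h => lt_irrefl _ (E.lt _ _ h)
  A_ne := fun i hi => hne _ (by
    rw [hp.par i hi]
    exact hp.ne i hi)
  ce := fun i hi a ha o' => by
    have h1 := hroot (q (i + 1)) (by
      rw [hp.par i hi]
      exact hp.ne i hi)
    have h2 := R.ce _ h1 a ha o'
    rw [hp.par i hi] at h2
    exact h2
  ord := fun i hi a ha b hb o' => by
    have h1 := hroot (q (i + 1)) (by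
      rw [hp.par i hi]
      exact hp.ne i hi)
    have h2 := ord_or R h1 o' ha hb
    rw [hp.par i hi] at h2
    exact h2

open Vale.Agent.P235.H926 in
/-- **The coupling along every path.** -/
theorem exists_coup {G K : ℝ} (hG0 : 0 ≤ G) (hK : 0 < K) (hG : ∀ t o p, |R.g t o p| ≤ G)
    (hGK : G * (2 * n + 1) ≤ K) (hroot : ∀ t, E.par t ≠ t → ¬ root t)
    (hne : ∀ t, E.par t ≠ t → (E.A t).Nonempty) {k : ℕ} (hk : 0 < k)
    (hcard : ∀ t, (E.A t).card ≤ k) (hκ : 0 < κ)
    (hε : k * ε ≤ PathChain.thSeq k (k - 1) / 4)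
    (hd0 : ∀ p, d p p = 0) (hd : ∀ p q, 0 ≤ d p q) (htri : ∀ p q r, d p r ≤ d p q + d q r)
    {q : ℕ → Fin n} {N : ℕ} (hp : Path E q N) {r : ℝ} (hr : ∀ a ∈ E.B (q 0), r ≤ d (q N) a) :
    ∃ (Ω : Type) (_ : Fintype Ω) (w : Ω → ℝ) (X : ℕ → Ω → (Fin n → Bool)),
      Coup E (muR R K) q N (r / (2 * K * PathChain.C1 k κ)) w X := by
  classical
  have hB0 : (E.B (q 0)).Nonempty := ⟨q 0, mem_insert_self _ _⟩
  set rr : Fin n → ℝ := fun v => (E.B (q 0)).inf' hB0 fun a => d v a with hrr
  have hN : (N : ℝ) ≤ n := by exact_mod_cast (path_len hp).le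
  obtain ⟨Ω, hf, w, X, h1, h2, h3, h4⟩ := coupling_fresh (chain R hp hroot hne) (G := G) (K := K) hK
    (fun i _ o p _ => hG _ o p) hG0 (by nlinarith) hk hκ hε (r := rr) (d := d)
    (fun i _ => hcard _)
    (fun v hv => by
      rw [← hd0 v]
      exact inf'_le (fun a => d v a) hv)
    (fun i _ a _ => by
      rw [← sub_le_iff_le_add]
      refine (le_inf'_iff hB0 _).mpr fun b hb => ?_
      rw [sub_le_iff_le_add]
      refine le_trans (inf'_le _ hb) ?_
      have := htri (q (i + 1)) a b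
      change d (q (i + 1)) b ≤ d a b + d (q (i + 1)) a
      linarith)
    (fun i _ a _ => hd _ _)
    (fun i _ a _ => by
      have h5 := (R.dd (q (i + 1))).mean_abs hd (q (i + 1)) a
      have h6 := hd (q (i + 1)) a
      change ∑ o, R.P (q (i + 1)) o * |R.g (q (i + 1)) o (q (i + 1)) - R.g (q (i + 1)) o a| ≤
        d (q (i + 1)) a
      linarith)
    (fun i _ a ha => R.ac (q (i + 1)) (q (i + 1)) (mem_insert_self _ _) a
      (mem_insert_of_mem ha))
    (x := q N) (mem_insert_self _ _)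
  refine ⟨Ω, hf, w, X, h1, ?_, h3, ?_⟩
  · intro i hi h hh
    unfold muR
    rw [Ex_law]
    exact h2 i hi h fun X X' hX => hh X X' hX
  · intro f hf01 _
    have h5 := h4 fun Y => decide (f Y = 1)
    have h6 : r / (2 * K * PathChain.C1 k κ) ≤ rr (q N) / (2 * K * PathChain.C1 k κ) := by
      have h7 : 0 < PathChain.C1 k κ := PathChain.C1_pos hk hκ
      refine div_le_div_of_nonneg_right ?_ (by positivity)
      exact (le_inf'_iff hB0 _).mpr hr
    refine le_trans h6 (le_trans h5 (le_of_eq ?_))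
    refine sum_congr rfl fun ω _ => ?_
    congr 1
    rcases hf01 (X 0 ω) with h8 | h8
    · rw [h8]
      cases X N ω (q N) <;> simp
    · rw [h8]
      cases X N ω (q N) <;> simp

end proc

end Vale.Agent.P235.H485
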