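import Vale.Agent.P235.H485.Laws
import Vale.Agent.P235.H684.End
import Vale.Agent.P235.H265.Elim

/-!
# The local part for metrics in elimination form, and bounded treewidth
-/

namespace Vale.Agent.P235.H485

open Finset Vale.Agent.P235.H684 Vale.Agent.P235.H926

/-- The local part of the proof, with constants which depend on `k` only. -/
theorem local_of (k : ℕ) : ∃ κ C1 : ℝ, 0 < κ ∧ κ ≤ 1 ∧ 0 < C1 ∧
    ∀ (n : ℕ) (A : Fin n → Finset (Fin n)) (d : Fin n → Fin n → ℝ), 0 < n →
      ∀ hA : H263.IsElim k A, H263.IsSep A d → Local hA d κ C1 := by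
  set kk := k + 1 with hkk
  have hkk0 : 0 < kk := Nat.succ_pos k
  have hkkR : (0 : ℝ) < kk := by exact_mod_cast hkk0
  have hth := PathChain.thSeq_pos hkk0 (kk - 1)
  set ε : ℝ := min (PathChain.thSeq kk (kk - 1) / (4 * kk)) (1 / 2) with hεd
  have hε0 : 0 < ε := lt_min (by positivity) (by norm_num)
  have hε1 : ε ≤ 1 / 2 := min_le_right _ _
  have hε2 : kk * ε ≤ PathChain.thSeq kk (kk - 1) / 4 := by
    have h1 : ε ≤ PathChain.thSeq kk (kk - 1) / (4 * kk) := min_le_left _ _
    rw [le_div_iff₀ (by positivity)] at h1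
    rw [le_div_iff₀ (by norm_num)]
    linarith
  obtain ⟨κ, hκ, H⟩ := H265.exists_proc_elim k hε0
  have hC := PathChain.C1_pos hkk0 hκ
  refine ⟨min (κ * (1 - ε)) 1, PathChain.C1 kk κ, lt_min (mul_pos hκ (by linarith)) one_pos,
    min_le_right _ _, hC, ?_⟩
  intro n A d hn hA hS
  obtain ⟨R⟩ := H n A d hA hS
  obtain ⟨G, hG0, hG⟩ := R.exists_bound
  have hnR : (0 : ℝ) < n := by exact_mod_cast hn
  set K : ℝ := G * (2 * n + 1) with hKd
  have hK : 0 < K := by positivity
  have hGK : ∀ t o p, |R.g t o p| ≤ K := fun t o p => by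
    refine le_trans (hG t o p) ?_
    rw [hKd]
    nlinarith
  have hne : ∀ t, (toElim hA).par t ≠ t → ((toElim hA).A t).Nonempty := by
    intro t ht
    by_contra h
    apply ht
    change H263.par A t = t
    unfold H263.par
    exact dif_neg h
  have hroot : ∀ t, (toElim hA).par t ≠ t → ¬ ¬ (A t).Nonempty := fun t ht => not_not.mpr (hne t ht)
  refine ⟨muR (par := (toElim hA).par) R K, 2 * K, by positivity, muR_isLaw (E := toElim hA) R hK,
    muR_cons (E := toElim hA) R hroot hGK, ?_, ?_⟩
  · intro t p hp p' hp'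
    refine ⟨le_trans ?_ (muR_ge (E := toElim hA) R hK hGK hS.nonneg hκ.le hp hp'),
      muR_le (E := toElim hA) R hK hGK hS.nonneg t p p'⟩
    exact mul_le_mul_of_nonneg_right (min_le_left _ _) (hS.nonneg p p')
  · intro q N hp r hr
    obtain ⟨Ω, hf, w, X, hc⟩ := exists_coup (E := toElim hA) R hG0.le hK hG le_rfl hroot hne hkk0
      (fun t => le_trans (hA.card t) (Nat.le_succ k)) hκ hε2 hS.self hS.nonneg
      (fun p q r => hS.tri p q r) hp hr
    refine ⟨_, Ω, hf, w, X, hc, le_of_eq ?_⟩
    field_simp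

/-- **Bounded treewidth**: for every `k` there is a constant `C` such that every weighting of every
connected finite graph of treewidth at most `k` embeds into `L₁` with distortion at most `C`. -/
theorem treewidth_bounded (k : ℕ) :
    ∃ C : ℝ, ∀ (V : Type) [Finite V] (G : SimpleGraph V), G.Connected → TreewidthLE G k →
      DistortionLE G C := by
  refine H263.treewidth_of_targets (fun k => ?_) k
  obtain ⟨κ, C1, h1, h2, h3, h4⟩ := local_of k
  exact target_of_local h1 h2 h3 h4

end Vale.Agent.P235.H485
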